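import Vale.Agent.Lib.P328.RC.HbMat
import Vale.Agent.Lib.P328.BlockMoves

/-!
# P328: explicit description of one step of the `2 × 2` heat-bath chain, and the trivial shapes

* `step_param`: the tables which agree with `X` outside the block `b × b'` are parametrised
  bijectively by their entry at the corner `(b.1, b'.1)`, which runs over an explicit interval.
* `tab_subsingleton_row`, `tab_subsingleton_col`: with at most one row or at most one column there
  is at most one table.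
-/

namespace P328Final

open P335 P328RC Finset Vale.Agent.Lib.P328

variable {ι κ : Type*} [Fintype ι] [Fintype κ] {r : ι → ℕ} {c : κ → ℕ}

/-- two functions with equal sums which agree off two points -/
theorem two_point {α : Type*} [Fintype α] [DecidableEq α] (f g : α → ℕ) (x y : α) (hxy : x ≠ y)
    (hs : ∑ a, f a = ∑ a, g a) (h : ∀ a, a ≠ x → a ≠ y → f a = g a) :
    f x + f y = g x + g y := by
  have hy' : y ∈ (univ : Finset α).erase x := mem_erase.2 ⟨hxy.symm, mem_univ y⟩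
  rw [← add_sum_erase univ f (mem_univ x), ← add_sum_erase univ g (mem_univ x),
    ← add_sum_erase _ f hy', ← add_sum_erase _ g hy'] at hs
  have : ∑ a ∈ ((univ : Finset α).erase x).erase y, f a
      = ∑ a ∈ ((univ : Finset α).erase x).erase y, g a := by
    apply sum_congr rfl
    intro a ha
    simp only [mem_erase] at ha
    exact h a ha.2.1 ha.1
  omega

section block

variable [DecidableEq ι] [DecidableEq κ]

theorem RX_row1 {b : ι × ι} {b' : κ × κ} (hb' : b'.1 ≠ b'.2) {X Y : Tab r c}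
    (h : RX b b' X Y) (i : ι) :
    X.1 i b'.1 + X.1 i b'.2 = Y.1 i b'.1 + Y.1 i b'.2 :=
  two_point (fun j => X.1 i j) (fun j => Y.1 i j) b'.1 b'.2 hb'
    ((X.2.1 i).trans (Y.2.1 i).symm)
    (fun j h1 h2 => h i j (fun hc => hc.2.elim h1 h2))

theorem RX_col1 {b : ι × ι} {b' : κ × κ} (hb : b.1 ≠ b.2) {X Y : Tab r c}
    (h : RX b b' X Y) (j : κ) :
    X.1 b.1 j + X.1 b.2 j = Y.1 b.1 j + Y.1 b.2 j :=
  two_point (fun i => X.1 i j) (fun i => Y.1 i j) b.1 b.2 hb
    ((X.2.2 j).trans (Y.2.2 j).symm)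
    (fun i h1 h2 => h i j (fun hc => hc.1.elim h1 h2))

/-- a table of the class is determined by its corner entry -/
theorem RX_unique {b : ι × ι} {b' : κ × κ} (hb : b.1 ≠ b.2) (hb' : b'.1 ≠ b'.2) {X Y Y' : Tab r c}
    (h : RX b b' X Y) (h' : RX b b' X Y') (hv : Y.1 b.1 b'.1 = Y'.1 b.1 b'.1) : Y = Y' := by
  have r1 := RX_row1 hb' h b.1
  have r1' := RX_row1 hb' h' b.1
  have r2 := RX_row1 hb' h b.2
  have r2' := RX_row1 hb' h' b.2
  have c1 := RX_col1 hb h b'.1
  have c1' := RX_col1 hb h' b'.1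
  apply Tab.ext
  intro i j
  by_cases hc : (i = b.1 ∨ i = b.2) ∧ (j = b'.1 ∨ j = b'.2)
  · rcases hc with ⟨rfl | rfl, rfl | rfl⟩
    · exact hv
    · omega
    · omega
    · omega
  · exact (h i j hc).symm.trans (h' i j hc)

/-- the table obtained from a matrix with the same margins -/
def ofSame (X : Tab r c) (Z : ι → κ → ℕ) (h : SameMargins X.1 Z) : Tab r c :=
  ⟨Z, fun i => (h.1 i).symm.trans (X.2.1 i), fun j => (h.2 j).symm.trans (X.2.2 j)⟩

theorem exists_up {b : ι × ι} {b' : κ × κ} (hb : b.1 ≠ b.2) (hb' : b'.1 ≠ b'.2) (X : Tab r c)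
    (k : ℕ) (h1 : k ≤ X.1 b.1 b'.2) (h2 : k ≤ X.1 b.2 b'.1) :
    ∃ Y : Tab r c, RX b b' X Y ∧ Y.1 b.1 b'.1 = X.1 b.1 b'.1 + k := by
  have hs := move_step X.1 hb hb' h1 h2
  refine ⟨ofSame X _ hs.1, ?_, move_apply_00 _ _ _ _ _ _⟩
  intro i j hc
  show X.1 i j = move X.1 b.1 b.2 b'.1 b'.2 k i j
  by_cases hi : i = b.1 ∨ i = b.2
  · have hj1 : j ≠ b'.1 := fun e => hc ⟨hi, Or.inl e⟩
    have hj2 : j ≠ b'.2 := fun e => hc ⟨hi, Or.inr e⟩
    exact (move_apply_row _ _ _ _ _ _ hj1 hj2 i).symm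
  · have hi1 : i ≠ b.1 := fun e => hi (Or.inl e)
    have hi2 : i ≠ b.2 := fun e => hi (Or.inr e)
    exact (move_apply_col _ _ _ _ _ _ hi1 hi2 j).symm

theorem exists_down {b : ι × ι} {b' : κ × κ} (hb : b.1 ≠ b.2) (hb' : b'.1 ≠ b'.2) (X : Tab r c)
    (k : ℕ) (h1 : k ≤ X.1 b.1 b'.1) (h2 : k ≤ X.1 b.2 b'.2) :
    ∃ Y : Tab r c, RX b b' X Y ∧ Y.1 b.1 b'.1 = X.1 b.1 b'.1 - k := by
  have hs := move_step X.1 hb hb'.symm h1 h2
  refine ⟨ofSame X _ hs.1, ?_, move_apply_01 _ _ _ hb'.symm _⟩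
  intro i j hc
  show X.1 i j = move X.1 b.1 b.2 b'.2 b'.1 k i j
  by_cases hi : i = b.1 ∨ i = b.2
  · have hj1 : j ≠ b'.1 := fun e => hc ⟨hi, Or.inl e⟩
    have hj2 : j ≠ b'.2 := fun e => hc ⟨hi, Or.inr e⟩
    exact (move_apply_row _ _ _ _ _ _ hj2 hj1 i).symm
  · have hi1 : i ≠ b.1 := fun e => hi (Or.inl e)
    have hi2 : i ≠ b.2 := fun e => hi (Or.inr e)
    exact (move_apply_col _ _ _ _ _ _ hi1 hi2 j).symm

/-- the corner entries of the tables of the class form an explicit interval -/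
theorem RX_range {b : ι × ι} {b' : κ × κ} (hb : b.1 ≠ b.2) (hb' : b'.1 ≠ b'.2) (X : Tab r c)
    (v : ℕ) :
    (∃ Y : Tab r c, RX b b' X Y ∧ Y.1 b.1 b'.1 = v) ↔
      X.1 b.1 b'.1 - min (X.1 b.1 b'.1) (X.1 b.2 b'.2) ≤ v ∧
        v ≤ X.1 b.1 b'.1 + min (X.1 b.1 b'.2) (X.1 b.2 b'.1) := by
  constructor
  · rintro ⟨Y, h, rfl⟩
    have r1 := RX_row1 hb' h b.1
    have r2 := RX_row1 hb' h b.2
    have c1 := RX_col1 hb h b'.1
    have c2 := RX_col1 hb h b'.2
    omega
  · rintro ⟨h1, h2⟩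
    rcases le_total (X.1 b.1 b'.1) v with hv | hv
    · obtain ⟨Y, hY, hY'⟩ := exists_up hb hb' X (v - X.1 b.1 b'.1) (by omega) (by omega)
      exact ⟨Y, hY, by omega⟩
    · obtain ⟨Y, hY, hY'⟩ := exists_down hb hb' X (X.1 b.1 b'.1 - v) (by omega) (by omega)
      exact ⟨Y, hY, by omega⟩

end block

/-- at most one row: at most one table -/
theorem tab_subsingleton_row [Subsingleton ι] (X Y : Tab r c) : X = Y := by
  apply Tab.ext
  intro i j
  have hX := X.2.2 j
  have hY := Y.2.2 j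
  rw [Fintype.sum_subsingleton _ i] at hX hY
  omega

/-- at most one column: at most one table -/
theorem tab_subsingleton_col [Subsingleton κ] (X Y : Tab r c) : X = Y := by
  apply Tab.ext
  intro i j
  have hX := X.2.1 i
  have hY := Y.2.1 i
  rw [Fintype.sum_subsingleton _ j] at hX hY
  omega

end P328Final
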